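import Vale.Agent.P098.B.Var
import Vale.Agent.P098.B.Inv

/-!
# P098 F/FlatA  (helper names start with flata_)

Cones with vanishing Hessian.  On `Ω = {u > 0}` (open, `u` smooth by `Mn.harm`) `fderiv u` is locally constant (`IsOpen.is_const_of_fderiv_eq_zero`-type lemma on a ball) and `u x = fderiv u x x` (differentiate `u (t • x) = t * u x` at `t = 1`).
`half`: the set of `y` in the convex half space `H = {0 < p y}` with `0 < u y` and `fderiv u y = p` is open, and closed in `H` (`u y = p y` on it); `IsPreconnected.subset_of_closure_inter_subset`.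
`two_planes`: with `p = a ⟪e, ·⟫`; `u = 0` on `⟪e, x⟫ = 0` by continuity; if `u x₁ > 0` with `⟪e, x₁⟫ < 0`, then `q = fderiv u x₁ = b ⟪f, ·⟫` and `f = -e`, because otherwise `e + f` lies in both half spaces and `p = q`.
-/

set_option maxSynthPendingDepth 3

open MeasureTheory Filter Topology Set Metric
open scoped ContDiff RealInnerProductSpace NNReal

noncomputable section

namespace Vale.Agent.P098

variable {d : ℕ}

variable {u : E d → ℝ}

theorem euler_hom (hh : Hom u) {x : E d} (hx : DifferentiableAt ℝ u x) : fderiv ℝ u x x = u x := by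
  have h1 : HasDerivAt (fun t : ℝ => t • x) x 1 := by
    simpa using (hasDerivAt_id (1 : ℝ)).smul_const x
  have h0 : HasFDerivAt u (fderiv ℝ u x) ((fun t : ℝ => t • x) 1) := by
    simpa using hx.hasFDerivAt
  have h2 : HasDerivAt (fun t : ℝ => u (t • x)) (fderiv ℝ u x x) 1 := h0.comp_hasDerivAt 1 h1
  have h3 : HasDerivAt (fun t : ℝ => t * u x) (u x) 1 := by
    simpa using (hasDerivAt_id (1 : ℝ)).mul_const (u x)
  refine h2.unique (h3.congr_of_eventuallyEq ?_)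
  filter_upwards [lt_mem_nhds (zero_lt_one : (0 : ℝ) < 1)] with t ht
  exact hh t ht x

theorem flata_diff (h : Mn u) {x : E d} (hx : 0 < u x) : DifferentiableAt ℝ u x :=
  (h.harm x hx).1.differentiableAt (by simp)

theorem flata_loc (h : Mn u) (h2 : ∀ x, 0 < u x → D2 u x = 0) {x : E d} (hx : 0 < u x) :
    ∀ᶠ y in 𝓝 x, 0 < u y ∧ fderiv ℝ u y = fderiv ℝ u x := by
  have hO : IsOpen {x | 0 < u x} := isOpen_lt continuous_const h.lip.continuous
  obtain ⟨r, hr, hb⟩ := Metric.isOpen_iff.1 hO x hx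
  filter_upwards [ball_mem_nhds x hr] with y hy
  refine ⟨hb hy, isOpen_ball.is_const_of_fderiv_eq_zero (𝕜 := ℝ) (convex_ball x r).isPreconnected
    (fun z hz => ?_) (fun z hz => h2 z (hb hz)) hy (mem_ball_self hr)⟩
  exact (calc_d1 ((h.harm z (hb hz)).1.of_le calc_le2)).differentiableWithinAt

theorem half (h : Mn u) (hh : Hom u) (h2 : ∀ x, 0 < u x → D2 u x = 0) {x₀ : E d} (h0 : 0 < u x₀) :
    ∀ y, 0 < fderiv ℝ u x₀ y → u y = fderiv ℝ u x₀ y ∧ fderiv ℝ u y = fderiv ℝ u x₀ := by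
  have hS : ∀ y, 0 < u y ∧ fderiv ℝ u y = fderiv ℝ u x₀ → u y = fderiv ℝ u x₀ y := fun y hy => by
    rw [← hy.2, euler_hom hh (flata_diff h hy.1)]
  have hH : Convex ℝ {y | 0 < fderiv ℝ u x₀ y} :=
    convex_halfSpace_gt (fderiv ℝ u x₀).toLinearMap.isLinear 0
  have hO : IsOpen {y | 0 < u y ∧ fderiv ℝ u y = fderiv ℝ u x₀} := by
    refine isOpen_iff_mem_nhds.2 fun y hy => ?_
    filter_upwards [flata_loc h h2 hy.1] with z hz
    exact ⟨hz.1, hz.2.trans hy.2⟩
  have key := hH.isPreconnected.subset_of_closure_inter_subset hO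
    ⟨x₀, by
      show 0 < fderiv ℝ u x₀ x₀
      rwa [euler_hom hh (flata_diff h h0)], h0, rfl⟩ (by
      rintro y ⟨hy1, hy2⟩
      have hc : IsClosed {y | u y = fderiv ℝ u x₀ y} :=
        isClosed_eq h.lip.continuous (fderiv ℝ u x₀).continuous
      have h3 : u y = fderiv ℝ u x₀ y := closure_minimal hS hc hy1
      have h4 : 0 < u y := by rw [h3]; exact hy2
      obtain ⟨z, hz1, hz2⟩ := mem_closure_iff_nhds.1 hy1 _ (flata_loc h h2 h4)
      exact ⟨h4, hz1.2.symm.trans hz2.2⟩)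
  intro y hy
  exact ⟨hS y (key hy), (key hy).2⟩

theorem flata_dir (h : Mn u) (hh : Hom u) (h2 : ∀ x, 0 < u x → D2 u x = 0) {x₀ : E d}
    (h0 : 0 < u x₀) : ∃ (e : E d) (a : ℝ), ‖e‖ = 1 ∧ 0 < a ∧
      (∀ y, fderiv ℝ u x₀ y = a * ⟪e, y⟫) ∧ (∀ y, 0 < ⟪e, y⟫ → fderiv ℝ u y = fderiv ℝ u x₀) ∧
      ∀ y, 0 ≤ ⟪e, y⟫ → u y = a * ⟪e, y⟫ := by
  have hg : gradient u x₀ ≠ 0 := by
    intro hg
    have h3 := inner_gradient u x₀ x₀
    rw [hg, inner_zero_left, euler_hom hh (flata_diff h h0)] at h3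
    exact h0.ne h3
  have ha : 0 < ‖gradient u x₀‖ := norm_pos_iff.2 hg
  obtain ⟨e, a, he, ha, hp⟩ : ∃ (e : E d) (a : ℝ), ‖e‖ = 1 ∧ 0 < a ∧
      ∀ y, fderiv ℝ u x₀ y = a * ⟪e, y⟫ := by
    refine ⟨‖gradient u x₀‖⁻¹ • gradient u x₀, ‖gradient u x₀‖, ?_, ha, fun y => ?_⟩
    · rw [norm_smul, norm_inv, norm_norm, inv_mul_cancel₀ ha.ne']
    · rw [real_inner_smul_left, ← mul_assoc, mul_inv_cancel₀ ha.ne', one_mul, inner_gradient]
  have h3 : ∀ y, 0 < ⟪e, y⟫ → u y = a * ⟪e, y⟫ ∧ fderiv ℝ u y = fderiv ℝ u x₀ := fun y hy => by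
    rw [← hp]
    exact half h hh h2 h0 y (by rw [hp]; exact mul_pos ha hy)
  refine ⟨e, a, he, ha, hp, fun y hy => (h3 y hy).2, fun y hy => ?_⟩
  have hc : IsClosed {y | u y = a * ⟪e, y⟫} :=
    isClosed_eq h.lip.continuous (continuous_const.mul (continuous_const.inner continuous_id))
  have ht : Tendsto (fun t : ℝ => y + t • e) (𝓝[>] 0) (𝓝 y) := by
    have h4 : Continuous fun t : ℝ => y + t • e := by fun_prop
    have h5 := h4.tendsto 0
    rw [zero_smul, add_zero] at h5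
    exact h5.mono_left nhdsWithin_le_nhds
  refine hc.mem_of_tendsto ht ?_
  filter_upwards [self_mem_nhdsWithin] with t ht'
  refine (h3 _ ?_).1
  rw [inner_add_right, real_inner_smul_right, real_inner_self_eq_norm_sq, he]
  have h6 : 0 < t := ht'
  linarith

theorem two_planes (h : Mn u) (hh : Hom u) (h2 : ∀ x, 0 < u x → D2 u x = 0) : (∀ x, u x = 0) ∨
    ∃ (e : E d) (a b : ℝ), ‖e‖ = 1 ∧ 0 < a ∧ 0 ≤ b ∧
      ∀ x, u x = a * max ⟪e, x⟫ 0 + b * max (-⟪e, x⟫) 0 := by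
  by_cases hz : ∀ x, u x = 0
  · exact Or.inl hz
  right
  obtain ⟨x₀, hx₀⟩ := not_forall.1 hz
  have h0 : 0 < u x₀ := lt_of_le_of_ne (h.nn x₀) (Ne.symm hx₀)
  obtain ⟨e, a, he, ha, hp, hp1, hp2⟩ := flata_dir h hh h2 h0
  obtain ⟨b, hb, hq⟩ : ∃ b : ℝ, 0 ≤ b ∧ ∀ x, ⟪e, x⟫ < 0 → u x = b * -⟪e, x⟫ := by
    by_cases h1 : ∃ x₁, ⟪e, x₁⟫ < 0 ∧ 0 < u x₁
    · obtain ⟨x₁, hx₁, h1⟩ := h1
      obtain ⟨f, b, hf, hb, hq, hq1, hq2⟩ := flata_dir h hh h2 h1
      have hfe : f = -e := by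
        by_contra hne
        have h3 : 0 < ‖e + f‖ := norm_pos_iff.2 fun h4 => hne (eq_neg_of_add_eq_zero_right h4)
        have h4 := norm_add_sq_real e f
        rw [he, hf] at h4
        have h5 : 0 < 1 + ⟪e, f⟫ := by nlinarith
        have h6 := hp1 (e + f) (by
          rw [inner_add_right, real_inner_self_eq_norm_sq, he]; linarith)
        have h7 := hq1 (e + f) (by
          rw [inner_add_right, real_inner_self_eq_norm_sq, hf, real_inner_comm]; linarith)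
        have h8 := euler_hom hh (flata_diff h h1)
        rw [← h7, h6, hp] at h8
        nlinarith
      refine ⟨b, hb.le, fun x hx => ?_⟩
      rw [← inner_neg_left, ← hfe]
      exact hq2 x (by rw [hfe, inner_neg_left]; linarith)
    · refine ⟨0, le_rfl, fun x hx => ?_⟩
      rw [zero_mul]
      exact le_antisymm (not_lt.1 fun h3 => h1 ⟨x, hx, h3⟩) (h.nn x)
  refine ⟨e, a, b, he, ha, hb, fun x => ?_⟩
  rcases le_or_gt 0 ⟪e, x⟫ with hx | hx
  · rw [hp2 x hx, max_eq_left hx, max_eq_right (by linarith), mul_zero, add_zero]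
  · rw [hq x hx, max_eq_right hx.le, max_eq_left (by linarith), mul_zero, zero_add]

end Vale.Agent.P098
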