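import Vale.Agent.P098.B.Sub
import Vale.Agent.P098.B.Super

/-!
# P098 F/FlatB  (helper names start with flatb_)

Two-plane minimizers.  Let `t = ⟪e, x⟫`, `q x = 1 + 2 (d + 1) t ^ 2 - ‖x‖ ^ 2`, `lap q = 4 (d + 1) - 2 d > 0` (`lap_mul`, `dot_self`, `fderiv_inner`), `q = 2 (d + 1) t ^ 2` on the unit sphere, `q 0 = 1`, `‖fderiv q x‖ ≤ 4 d + 6` on `D = closedBall 0 1` (`frontier_closedBall_subset_sphere`).
`b = 0`: otherwise `Mn.sub` with `v = η q` (the zero set of `u` is a null hyperplane, `Measure.addHaar_submodule` for `LinearMap.ker`), `v 0 ≤ u 0 = 0`.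
`a ≤ 1`: otherwise `Mn.sub` with `v = a' t + η q`, `1 < a' < a`.  `1 ≤ a`: otherwise `Mn.super` with `v = a' t - η q`, `a < a' < 1`, evaluated at `τ • e` with `τ` small, where `v < 0 < u`.
-/

set_option maxSynthPendingDepth 3

open MeasureTheory Filter Topology Set Metric
open scoped ContDiff RealInnerProductSpace NNReal

noncomputable section

namespace Vale.Agent.P098

variable {d : ℕ}

variable {u : E d → ℝ} {e : E d} {a b : ℝ}

theorem flatb_q (he : ‖e‖ = 1) : ∃ (q : E d → ℝ) (N : ℝ), 1 ≤ N ∧ ContDiff ℝ ∞ q ∧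
    (∀ x, 0 < lap q x) ∧ (∀ x, ‖x‖ = 1 → q x ≤ N * |⟪e, x⟫|) ∧
    (∀ x, ‖x‖ ≤ 1 → ‖fderiv ℝ q x‖ ≤ N) ∧ q 0 = 1 ∧ ∀ τ : ℝ, 1 ≤ q (τ • e) := by
  have d0 : (0 : ℝ) ≤ d := Nat.cast_nonneg d
  have c1 := contDiff_inner' e
  have c2 : ContDiff ℝ ∞ fun x : E d => (d + 1 : ℝ) * (⟪e, x⟫ * ⟪e, x⟫) :=
    contDiff_const.mul (c1.mul c1)
  have c3 : ContDiff ℝ ∞ fun x : E d => 1 + (d + 1 : ℝ) * (⟪e, x⟫ * ⟪e, x⟫) - ‖x‖ ^ 2 :=
    (contDiff_const.add c2).sub (contDiff_norm_sq ℝ)
  obtain ⟨G, hG⟩ := (isCompact_closedBall (0 : E d) 1).exists_bound_of_continuousOn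
    (c3.continuous_fderiv (by simp)).continuousOn
  refine ⟨_, max G (d + 1), le_max_of_le_right (by linarith), c3, fun x => ?_, fun x hx => ?_,
    fun x hx => (hG x (mem_closedBall_zero_iff.2 hx)).trans (le_max_left _ _), by simp, fun τ => ?_⟩
  · have h1 : ContDiffAt ℝ 2 (fun y : E d => ⟪e, y⟫) x := c1.contDiffAt.of_le calc_le2
    have h2 : ContDiffAt ℝ 2 (fun x : E d => (d + 1 : ℝ) * (⟪e, x⟫ * ⟪e, x⟫)) x :=
      c2.contDiffAt.of_le calc_le2
    rw [lap_sub (contDiffAt_const.add h2) (contDiff_norm_sq ℝ).contDiffAt,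
      lap_add contDiffAt_const h2, lap_const, lap_const_mul _ (h1.mul h1), lap_mul h1 h1, lap_inner,
      dot_self, fderiv_inner, innerSL_apply_norm, he, lap_normSq]
    linarith
  · have h1 := abs_real_inner_le_norm e x
    rw [he, hx, one_mul] at h1
    have h2 : ⟪e, x⟫ * ⟪e, x⟫ ≤ |⟪e, x⟫| := by
      rw [← abs_mul_abs_self]
      exact mul_le_of_le_one_left (abs_nonneg _) h1
    have h3 := mul_le_mul (le_max_right G (d + 1)) h2 (mul_self_nonneg _)
      (le_max_of_le_right (by linarith))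
    rw [hx]
    linarith
  · rw [inner_smul_right, real_inner_self_eq_norm_sq, norm_smul, he, mul_pow, Real.norm_eq_abs,
      sq_abs]
    nlinarith [mul_nonneg d0 (sq_nonneg τ)]

theorem flatb_v (he : ‖e‖ = 1) {q : E d → ℝ} (hq : ContDiff ℝ ∞ q) (c η : ℝ) :
    ContDiff ℝ 2 (fun x => c * ⟪e, x⟫ + η * q x) ∧
      (∀ x, lap (fun x => c * ⟪e, x⟫ + η * q x) x = η * lap q x) ∧
      ∀ x, |‖fderiv ℝ (fun x => c * ⟪e, x⟫ + η * q x) x‖ - (|c|)| ≤ |η| * ‖fderiv ℝ q x‖ := by
  have h1 : ContDiff ℝ 2 fun y : E d => ⟪e, y⟫ := (contDiff_inner' e).of_le calc_le2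
  have h2 : ContDiff ℝ 2 q := hq.of_le calc_le2
  refine ⟨(contDiff_const.mul h1).add (contDiff_const.mul h2), fun x => ?_, fun x => ?_⟩
  · rw [lap_add (contDiff_const.mul h1).contDiffAt (contDiff_const.mul h2).contDiffAt,
      lap_const_mul _ h1.contDiffAt, lap_const_mul _ h2.contDiffAt, lap_inner, mul_zero, zero_add]
  · have e1 : fderiv ℝ (fun x => c * ⟪e, x⟫ + η * q x) x = c • innerSL ℝ e + η • fderiv ℝ q x :=
      (((innerSL ℝ e).hasFDerivAt.const_mul c).add
        ((h2.differentiable (by simp) x).hasFDerivAt.const_mul η)).fderiv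
    have := abs_norm_sub_norm_le (c • innerSL ℝ e + η • fderiv ℝ q x) (c • innerSL ℝ e)
    rwa [add_sub_cancel_left, norm_smul, norm_smul, innerSL_apply_norm, he, mul_one, ← e1] at this

theorem flatb_fr {x : E d} (hx : x ∈ frontier (closedBall (0 : E d) 1)) : ‖x‖ = 1 :=
  mem_sphere_zero_iff_norm.1 (frontier_closedBall_subset_sphere hx)

theorem planes_b (h : Mn u) (he : ‖e‖ = 1) (ha : 0 < a) (hb : 0 ≤ b)
    (hu : ∀ x, u x = a * max ⟪e, x⟫ 0 + b * max (-⟪e, x⟫) 0) : b = 0 := by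
  by_contra hb0
  have b0 : 0 < b := lt_of_le_of_ne hb (Ne.symm hb0)
  obtain ⟨q, N, N1, q1, q2, q3, -, q5, -⟩ := flatb_q he
  have m0 : 0 < min a b := lt_min ha b0
  have η0 : 0 < min a b / N := by positivity
  obtain ⟨v1, v2, -⟩ := flatb_v he q1 0 (min a b / N)
  have hn : ∀ᵐ x : E d, ⟪e, x⟫ ≠ 0 := by
    refine compl_mem_ae_iff.2 (Measure.addHaar_submodule volume
      (LinearMap.ker (innerSL ℝ e).toLinearMap) fun k => ?_)
    have : e ∈ LinearMap.ker (innerSL ℝ e).toLinearMap := k ▸ Submodule.mem_top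
    simp [he] at this
  have hu' : ∀ x, min a b * |⟪e, x⟫| ≤ u x := fun x => by
    rw [hu, ← max_zero_add_max_neg_zero_eq_abs_self, mul_add]
    exact add_le_add (mul_le_mul_of_nonneg_right (min_le_left _ _) (le_max_right _ _))
      (mul_le_mul_of_nonneg_right (min_le_right _ _) (le_max_right _ _))
  have := h.sub (isCompact_closedBall 0 1) v1 (fun x hx => ?_)
    (fun x _ _ => v2 x ▸ mul_pos η0 (q2 x)) (hn.mono fun x hx _ k =>
      absurd k ((mul_pos m0 (abs_pos.2 hx)).trans_le (hu' x)).ne') 0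
    (mem_closedBall_self zero_le_one)
  · simp only [hu, q5, inner_zero_right, neg_zero, max_self, mul_zero, zero_add, mul_one] at this
    linarith
  · have a1 := mul_le_mul_of_nonneg_left (q3 x (flatb_fr hx)) η0.le
    rw [← mul_assoc, div_mul_cancel₀ _ (by linarith)] at a1
    linarith [hu' x]

theorem planes_a (h : Mn u) (he : ‖e‖ = 1) (ha : 0 < a) (hu : ∀ x, u x = a * max ⟪e, x⟫ 0) : a = 1 := by
  obtain ⟨q, N, N1, q1, q2, q3, q4, q5, q6⟩ := flatb_q he
  refine le_antisymm (not_lt.1 fun a1 => ?_) (not_lt.1 fun a1 => ?_)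
  · obtain ⟨η, η0, e1⟩ : ∃ η : ℝ, 0 < η ∧ η * N = (a - 1) / 2 :=
      ⟨(a - 1) / 2 / N, div_pos (by linarith) (by linarith), div_mul_cancel₀ _ (by linarith)⟩
    obtain ⟨v1, v2, v3⟩ := flatb_v he q1 ((a + 1) / 2) η
    have := h.sub (isCompact_closedBall 0 1) v1 (fun x hx => ?_)
      (fun x _ _ => v2 x ▸ mul_pos η0 (q2 x)) (Eventually.of_forall fun x hx _ _ => ?_) 0
      (mem_closedBall_self zero_le_one)
    · simp only [hu, q5, inner_zero_right, max_self, mul_zero, zero_add, mul_one] at this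
      linarith
    · have b1 := mul_le_mul_of_nonneg_left (q3 x (flatb_fr hx)) η0.le
      rw [← mul_assoc, e1] at b1
      rw [hu]
      rcases le_total 0 ⟪e, x⟫ with k | k
      · rw [abs_of_nonneg k] at b1
        rw [max_eq_left k]
        linarith
      · rw [abs_of_nonpos k] at b1
        rw [max_eq_right k]
        linarith
    · have b1 := mul_le_mul_of_nonneg_left (q4 x (mem_closedBall_zero_iff.1 hx)) η0.le
      have b2 := (abs_le.1 (v3 x)).1
      rw [abs_of_pos η0, abs_of_pos (by linarith)] at b2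
      exact one_le_pow₀ (by linarith)
  · obtain ⟨η, η0, e1⟩ : ∃ η : ℝ, 0 < η ∧ η * N = (1 - a) / 4 :=
      ⟨(1 - a) / 4 / N, div_pos (by linarith) (by linarith), div_mul_cancel₀ _ (by linarith)⟩
    have η1 : η ≤ 1 := by nlinarith
    obtain ⟨v1, v2, v3⟩ := flatb_v he q1 ((a + 1) / 2) (-η)
    have lp : ∀ x, lap (fun x => (a + 1) / 2 * ⟪e, x⟫ + -η * q x) x < 0 := fun x =>
      v2 x ▸ mul_neg_of_neg_of_pos (neg_neg_of_pos η0) (q2 x)
    have := h.super (isCompact_closedBall 0 1) v1 (fun x hx => ?_) (fun x _ _ _ => lp x)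
      (fun x hx _ k => ?_) (η • e) (by
        rwa [mem_closedBall_zero_iff, norm_smul, he, mul_one, Real.norm_of_nonneg η0.le])
    · rw [hu, inner_smul_right, real_inner_self_eq_norm_sq, he, one_pow, mul_one,
        max_eq_left η0.le, max_eq_right (by nlinarith [q6 η])] at this
      exact this.not_gt (mul_pos ha η0)
    · have b1 := mul_le_mul_of_nonneg_left (q3 x (flatb_fr hx)) η0.le
      rw [← mul_assoc, e1] at b1
      rw [hu]
      rcases le_total 0 ⟪e, x⟫ with k | k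
      · rw [abs_of_nonneg k] at b1
        rw [max_eq_left k]
        exact le_max_of_le_left (by nlinarith)
      · rw [max_eq_right k, mul_zero]
        exact le_max_right _ _
    · have b1 := mul_le_mul_of_nonneg_left (q4 x (mem_closedBall_zero_iff.1 hx)) η0.le
      have b2 := (abs_le.1 (v3 x)).2
      rw [abs_neg, abs_of_pos η0, abs_of_pos (by linarith)] at b2
      have b3 := pow_lt_one₀ (norm_nonneg _) (show ‖fderiv ℝ (fun x => (a + 1) / 2 * ⟪e, x⟫ +
        -η * q x) x‖ < 1 by linarith) two_ne_zero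
      linarith [mul_neg_of_neg_of_pos (lp x) k]

end Vale.Agent.P098
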