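import Vale.Agent.P098.D.Main
import Vale.Agent.P098.C.BlowB

/-!
# P098 F/Scale  (helper names start with scale_)

Uniform expansions along the free boundary.  `Exp.scale`: the jet of `w` is `r • js j r⁻¹ = (0, l, M / r, K / r ^ 2)` (`w y = r * sc w 0 r (r⁻¹ • y)`; `trap_sc` with `P = ev (r • js j r⁻¹)`, `sc P 0 r = ev j`); `r * (C (t / r) ^ (7 / 2)) = C r ^ (-5 / 2) t ^ (7 / 2)`, `r ^ (-5 / 2) ≤ (1 + a⁻¹) ^ 3`.
`exp_unif`: `x₀ = s • x₁`, `s = ‖x₀‖`, `Hom.fb`, `blow_unif`, `eps_reg` for `sc u x₁ r = sc u x₀ (s * r) = sc (sc u x₀ 1) 0 (s * r)` (`Hom.sc`, `sc_sc`, `Mn.sc`, `fb_sc`).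
-/

set_option maxSynthPendingDepth 3

open MeasureTheory Filter Topology Set Metric
open scoped ContDiff RealInnerProductSpace NNReal

noncomputable section

namespace Vale.Agent.P098

variable {d : ℕ}

theorem Exp.scale {w : E d → ℝ} {C r₀ r a : ℝ} (hC : 0 ≤ C) (hr : 0 < r₀) (ha : 0 < a) (h1 : a ≤ r)
    (h : Exp (sc w 0 r) C r₀) : Exp w (C * (1 + a⁻¹) ^ 3) (a * r₀) := by
  obtain ⟨l, j, hj, hn, ht⟩ := h
  have r0 : 0 < r := ha.trans_le h1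
  have i0 : 0 < r⁻¹ := inv_pos_of_pos r0
  have i1 : r⁻¹ ≤ 1 + a⁻¹ := by linarith [inv_anti₀ ha h1]
  have b1 : 1 ≤ 1 + a⁻¹ := le_add_of_nonneg_right (inv_pos_of_pos ha).le
  have e : r • js j r⁻¹ = (0, j.2.1, r⁻¹ • j.2.2.1, r⁻¹ ^ 2 • j.2.2.2) := by
    refine Prod.ext ?_ (Prod.ext (smul_inv_smul₀ r0.ne' _) (Prod.ext ?_ ?_))
    · show r * j.1 = 0
      rw [hj.c0, mul_zero]
    · show r • r⁻¹ ^ 2 • j.2.2.1 = r⁻¹ • j.2.2.1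
      rw [smul_smul, show r * r⁻¹ ^ 2 = r⁻¹ by field_simp]
    · show r • r⁻¹ ^ 3 • j.2.2.2 = r⁻¹ ^ 2 • j.2.2.2
      rw [smul_smul, show r * r⁻¹ ^ 3 = r⁻¹ ^ 2 by field_simp]
  have key : ∀ (n : ℕ) (x : ℝ), n ≤ 3 → 0 ≤ x → x ≤ ‖j‖ → r⁻¹ ^ n * x ≤ C * (1 + a⁻¹) ^ 3 :=
    fun n x hn3 x0 x1 => by
      rw [mul_comm]
      exact mul_le_mul (x1.trans hn) ((pow_le_pow_left₀ i0.le i1 n).trans
        (pow_le_pow_right₀ b1 hn3)) (by positivity) hC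
  refine ⟨l, r • js j r⁻¹, ⟨(hj.hj.js _).smul _, hj.unit, by rw [e], fun v => by
    rw [e]; exact hj.c1 v, fun v => ?_, fun v w hv hw => ?_⟩, ?_, fun t t0 t1 => ?_⟩
  · rw [e]
    show r⁻¹ * j.2.2.1 l v = r⁻¹ * j.2.2.1 l l * ⟪l, v⟫
    rw [hj.c2, mul_assoc]
  · rw [e]
    have e1 : sqf (r⁻¹ • j.2.2.1) v w = r⁻¹ ^ 2 * sqf j.2.2.1 v w := by
      simp only [sqf, Finset.mul_sum]
      refine Finset.sum_congr rfl fun i _ => ?_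
      show r⁻¹ * j.2.2.1 v (bv i) * (r⁻¹ * j.2.2.1 w (bv i)) = _
      ring
    show r⁻¹ ^ 2 * j.2.2.2 l v w + sqf (r⁻¹ • j.2.2.1) v w -
      r⁻¹ * j.2.2.1 l l * (r⁻¹ * j.2.2.1 v w) = 0
    rw [e1]
    linear_combination r⁻¹ ^ 2 * hj.c3 v w hv hw
  · obtain ⟨-, j1, j2, j3⟩ := jet_le j
    rw [e, Prod.norm_def, Prod.norm_def, Prod.norm_def]
    refine max_le (by rw [norm_zero]; positivity) (max_le ?_ (max_le ?_ ?_))
    · simpa using key 0 _ (by norm_num) (norm_nonneg _) j1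
    · rw [norm_smul, Real.norm_of_nonneg i0.le]
      simpa using key 1 _ (by norm_num) (norm_nonneg _) j2
    · rw [norm_smul, Real.norm_of_nonneg (pow_pos i0 2).le]
      exact key 2 _ (by norm_num) (norm_nonneg _) j3
  · have e2 : sc (ev (r • js j r⁻¹)) 0 r = ev j := by
      funext x
      rw [sc, ev_smul, ev_js, zero_add, inv_smul_smul₀ r0.ne', mul_div_cancel_left₀ _ r0.ne']
    have k := ht (t * r⁻¹) (mul_pos t0 i0) (by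
      rw [← div_eq_mul_inv, div_le_iff₀' r0]
      exact t1.trans (mul_le_mul_of_nonneg_right h1 hr.le))
    rw [← e2, trap_sc r0] at k
    refine k.mono (le_of_eq (by field_simp)) ?_
    have e3 : r⁻¹ ^ (7 / 2 : ℝ) = r⁻¹ * r⁻¹ ^ (5 / 2 : ℝ) := by
      rw [show (7 / 2 : ℝ) = 1 + 5 / 2 by norm_num, Real.rpow_add i0, Real.rpow_one]
    have e4 : r⁻¹ ^ (5 / 2 : ℝ) ≤ (1 + a⁻¹) ^ 3 := by
      refine (Real.rpow_le_rpow i0.le i1 (by norm_num)).trans ?_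
      rw [← Real.rpow_natCast]
      exact Real.rpow_le_rpow_of_exponent_le b1 (by norm_num)
    rw [Real.mul_rpow t0.le i0.le, e3]
    have e5 : r * (C * (t ^ (7 / 2 : ℝ) * (r⁻¹ * r⁻¹ ^ (5 / 2 : ℝ)))) =
        C * r⁻¹ ^ (5 / 2 : ℝ) * t ^ (7 / 2 : ℝ) := by field_simp
    rw [e5]
    exact mul_le_mul_of_nonneg_right (mul_le_mul_of_nonneg_left e4 hC) (Real.rpow_nonneg t0.le _)

theorem exp_unif (ih : ∀ V : E d → ℝ, Mn V → Hom V → Flat V) {u : E (d + 1) → ℝ} (h : Mn u)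
    (hh : Hom u) {a : ℝ} (ha : 0 < a) : ∃ C r₀ : ℝ, 1 ≤ C ∧ 0 < r₀ ∧ ∀ x₀ ∈ FB u, a ≤ ‖x₀‖ →
      Exp (sc u x₀ 1) C r₀ := by
  obtain ⟨σ, C, r₀, σ0, C1, r0, H⟩ := eps_reg (d + 1)
  obtain ⟨r₁, r1, H'⟩ := blow_unif ih h hh σ0
  have a1 := mul_pos ha r1
  refine ⟨C * (1 + (a * r₁)⁻¹) ^ 3, a * r₁ * r₀, one_le_mul_of_one_le_of_one_le C1
    (one_le_pow₀ (le_add_of_nonneg_right (inv_pos_of_pos a1).le)), mul_pos a1 r0, fun x₀ hx hn => ?_⟩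
  have s0 : 0 < ‖x₀‖ := ha.trans_le hn
  have f1 := hh.fb (inv_pos_of_pos s0) hx
  obtain ⟨r, e, k1, -, he, ht⟩ := H' _ f1 (by
    rw [norm_smul, norm_inv, norm_norm, inv_mul_cancel₀ s0.ne'])
  have r2 : 0 < r := r1.trans_le k1
  have k := H _ e (h.sc _ r2) ((fb_sc r2).2 (by rwa [smul_zero, add_zero])) he ht
  refine Exp.scale (r := ‖x₀‖ * r) (by linarith) r0 a1 (mul_le_mul hn k1 r1.le s0.le) ?_
  rw [← hh.sc _ r s0, smul_inv_smul₀ s0.ne'] at k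
  rwa [sc_sc, smul_zero, add_zero, one_mul]


end Vale.Agent.P098
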