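import Vale.Agent.P098.F.Pre
import Vale.Agent.P098.F.Scale
import Vale.Agent.P098.F.FlatA
import Vale.Agent.P098.F.FlatB
import Vale.Agent.P098.B.Stab3
import Vale.Agent.P098.S1.Main

/-!
# P098 F/Main  (helper names start with main_)

The induction on the dimension.
-/

set_option maxSynthPendingDepth 3

open MeasureTheory Filter Topology Set Metric
open scoped ContDiff RealInnerProductSpace NNReal

noncomputable section

namespace Vale.Agent.P098

variable {d : ℕ}

theorem flat_of_D2 {u : E d → ℝ} (h : Mn u) (hh : Hom u) (h2 : ∀ x, 0 < u x → D2 u x = 0) : Flat u := by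
  rcases two_planes h hh h2 with h0 | ⟨e, a, b, he, ha, hb, hu⟩
  · exact Or.inl h0
  · have hb0 := planes_b h he ha hb hu
    have hu' : ∀ x, u x = a * max ⟪e, x⟫ 0 := fun x => by rw [hu x, hb0]; ring
    have ha1 := planes_a h he ha hu'
    exact Or.inr ⟨e, he, fun x => by rw [hu' x, ha1, one_mul]⟩

theorem flat_all : ∀ d : ℕ, d ≤ 6 → ∀ u : E d → ℝ, Mn u → Hom u → Flat u := by
  intro d
  induction d with
  | zero =>
    intro _ u _ hh
    refine Or.inl fun x => ?_
    rw [Subsingleton.elim x 0]
    exact hh.zero
  | succ n ih =>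
    intro hd u h hh
    have ih' := ih (by omega)
    have hp : PreCone u := pre_of_exp h hh fun a ha => exp_unif ih' h hh ha
    exact flat_of_D2 h hh (stage1 hd (h.cone hp))

end Vale.Agent.P098
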