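import Vale.Agent.P098.D.Bg

/-!
# P098 F/NearA  (helper names start with neara_)

Estimates at a point `x` whose nearest zero is the origin.  `near_dir`: with `n = ρ⁻¹ • x ≠ l` and `y = τ • (n - l)`, `0 < τ < ρ`: `‖y - x‖ < ρ`, so `0 < u y ≤ ev j y + C (3 τ) ^ (7 / 2)` (use `Trap` at the radius `3 τ > ‖y‖`), but
`ev j y ≤ -τ (1 - ⟪n, l⟫) + K τ ^ 2` with `⟪n, l⟫ < 1` (`inner_lt_one_iff_real_of_norm_eq_one`), a contradiction for small `τ`.
`near_a`: `w = u - ev j` is harmonic on `ball x ρ ⊆ ball 0 (2 ρ)` (`Mn.harm`, `HJ.harm`, `Harm.sub`), `|w| ≤ C (2 ρ) ^ (7 / 2)` (`Trap.abs`), `ρ ^ (7 / 2) = ρ ^ 3 √ρ`, `harm_est3`, `D2_sub`, `D3_sub`, `HJ.fderiv`, `HJ.D2`, `HJ.D3`, `SJ.c2`; `norm_gradient`-type identity `⟪gradient u x - c • l, v⟫ = fderiv u x v - c ⟪l, v⟫`.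
-/

set_option maxSynthPendingDepth 3

open MeasureTheory Filter Topology Set Metric
open scoped ContDiff RealInnerProductSpace NNReal

noncomputable section

namespace Vale.Agent.P098

variable {d : ℕ}

/-- The jet of `u` at `x` is close to the boundary jet `j`. -/
structure Near (u : E d → ℝ) (x l : E d) (j : Jet d) (C ρ : ℝ) : Prop where
  g : ‖gradient u x - (1 + j.2.2.1 l l * ρ) • l‖ ≤ C * ρ ^ 2
  v : |u x - ρ| ≤ C * ρ ^ 2
  s : ‖D2 u x - j.2.2.1‖ ≤ C * ρ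
  t : ‖D3 u x - j.2.2.2‖ ≤ C * √ρ

theorem neara_quad {l y : E d} {j : Jet d} {r : ℝ} (hj : SJ l j) (hy : ‖y‖ ≤ r) :
    |ev j y - ⟪l, y⟫| ≤ ‖j.2.2.1‖ * r ^ 2 + ‖j.2.2.2‖ * r ^ 3 := by
  have h := abs_ev_le ((0, 0, j.2.2.1, j.2.2.2) : Jet d) hy
  have e : ev j y - ⟪l, y⟫ = ev ((0, 0, j.2.2.1, j.2.2.2) : Jet d) y := by
    simp only [ev, hj.c0, hj.c1, ContinuousLinearMap.zero_apply]
    ring
  rw [e]
  simpa using h

theorem neara_pow {s : ℝ} (hs : 0 < s) : s ^ (7 / 2 : ℝ) = s ^ 3 * √s := by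
  rw [Real.sqrt_eq_rpow, ← Real.rpow_natCast, ← Real.rpow_add hs]
  norm_num

theorem near_dir {u : E d → ℝ} {x l : E d} {j : Jet d} {C r₀ ρ : ℝ} (hj : SJ l j) (hr : 0 < r₀)
    (ht : ∀ r : ℝ, 0 < r → r ≤ r₀ → Trap u (ev j) r (C * r ^ (7 / 2 : ℝ))) (hρ : 0 < ρ) (hx : ‖x‖ = ρ)
    (hb : ∀ y, ‖y - x‖ < ρ → 0 < u y) : x = ρ • l := by
  by_contra hne
  obtain ⟨n, hn, rfl⟩ : ∃ n : E d, ‖n‖ = 1 ∧ x = ρ • n := ⟨ρ⁻¹ • x, by
    rw [norm_smul, hx, norm_inv, Real.norm_of_nonneg hρ.le, inv_mul_cancel₀ hρ.ne'], by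
    rw [smul_smul, mul_inv_cancel₀ hρ.ne', one_smul]⟩
  have hnl : ⟪n, l⟫ < 1 := (inner_lt_one_iff_real_of_norm_eq_one hn hj.unit).2 fun h => hne (by rw [h])
  have nn : ⟪n, n⟫ = 1 := by rw [real_inner_self_eq_norm_sq, hn, one_pow]
  have ll : ⟪l, l⟫ = 1 := by rw [real_inner_self_eq_norm_sq, hj.unit, one_pow]
  obtain ⟨K, hK⟩ : ∃ K, K = 9 * (‖j.2.2.1‖ + ‖j.2.2.2‖ + |C|) := ⟨_, rfl⟩
  have K0 : 0 ≤ K := by rw [hK]; positivity
  obtain ⟨τ, t0, t1, t2, t3, t4⟩ : ∃ τ : ℝ, 0 < τ ∧ τ ≤ ρ / 2 ∧ τ ≤ r₀ / 3 ∧ τ ≤ 1 / 3 ∧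
      τ ≤ (1 - ⟪n, l⟫) / (K + 1) :=
    ⟨min (min (ρ / 2) (r₀ / 3)) (min (1 / 3) ((1 - ⟪n, l⟫) / (K + 1))),
      lt_min (lt_min (by positivity) (by positivity))
        (lt_min (by positivity) (div_pos (by linarith) (by linarith))),
      (min_le_left _ _).trans (min_le_left _ _), (min_le_left _ _).trans (min_le_right _ _),
      (min_le_right _ _).trans (min_le_left _ _), (min_le_right _ _).trans (min_le_right _ _)⟩
  have t5 : τ * (K + 1) ≤ 1 - ⟪n, l⟫ := (le_div_iff₀ (by linarith)).1 t4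
  have hy : ‖τ • (n - l)‖ ≤ 2 * τ := by
    rw [norm_smul, Real.norm_of_nonneg t0.le]
    have := norm_sub_le n l
    rw [hn, hj.unit] at this
    nlinarith
  have hb' : ‖τ • (n - l) - ρ • n‖ < ρ := by
    refine lt_of_pow_lt_pow_left₀ 2 hρ.le ?_
    rw [← real_inner_self_eq_norm_sq]
    simp only [inner_sub_left, inner_sub_right, real_inner_smul_left, real_inner_smul_right, nn, ll,
      real_inner_comm n l]
    have : 0 < τ * (ρ - τ) * (1 - ⟪n, l⟫) :=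
      mul_pos (mul_pos t0 (by linarith)) (by linarith)
    nlinarith
  have h1 := Trap.abs (ht (3 * τ) (by linarith) (by linarith)) (by linarith) (hb _ hb')
  have h2 := neara_quad hj (hy.trans (by linarith : 2 * τ ≤ 3 * τ))
  have h3 : ⟪l, τ • (n - l)⟫ = -(τ * (1 - ⟪n, l⟫)) := by
    rw [real_inner_smul_right, inner_sub_right, ll, real_inner_comm]
    ring
  have h4 : (3 * τ) ^ 3 ≤ (3 * τ) ^ 2 := pow_le_pow_of_le_one (by linarith) (by linarith) (by norm_num)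
  have h5 : (3 * τ) ^ (7 / 2 : ℝ) ≤ (3 * τ) ^ 2 := by
    rw [← Real.rpow_natCast]
    exact Real.rpow_le_rpow_of_exponent_ge (by linarith) (by linarith) (by norm_num)
  have h6 : C * (3 * τ) ^ (7 / 2 : ℝ) ≤ |C| * (3 * τ) ^ 2 :=
    mul_le_mul (le_abs_self C) h5 (by positivity) (abs_nonneg C)
  have h7 := mul_le_mul_of_nonneg_left h4 (norm_nonneg j.2.2.2)
  have h8 := hb _ hb'
  have h9 : τ * (τ * (K + 1)) ≤ τ * (1 - ⟪n, l⟫) := mul_le_mul_of_nonneg_left t5 t0.le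
  rw [h3] at h2
  have h10 := (abs_le.1 h1).2
  have h11 := (abs_le.1 h2).2
  have h12 : 0 < τ * τ := mul_pos t0 t0
  rw [hK] at h9
  nlinarith
theorem near_a (d : ℕ) {C : ℝ} (hC : 1 ≤ C) : ∃ C' : ℝ, 1 ≤ C' ∧ ∀ (u : E d → ℝ) (x : E d) (r₀ ρ : ℝ),
    Mn u → Exp u C r₀ → 0 < ρ → 2 * ρ ≤ r₀ → ρ ≤ 1 → ‖x‖ = ρ → (∀ y, ‖y - x‖ < ρ → 0 < u y) →
      ∃ (l : E d) (j : Jet d), SJ l j ∧ ‖j‖ ≤ C' ∧ Near u x l j C' ρ := by
  obtain ⟨A, A1, hA⟩ := harm_est3 d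
  have CA : 0 ≤ C * A := by positivity
  refine ⟨16 * (C * A) + 20 * C, by linarith, fun u x r₀ ρ hu ⟨l, j, hj, hjC, ht⟩ hρ h2 h1 hx hb => ?_⟩
  have hxl := near_dir hj (by linarith) ht hρ hx hb
  obtain ⟨-, -, j2, j3⟩ := jet_le j
  replace j2 := j2.trans hjC
  replace j3 := j3.trans hjC
  have C0 : 0 ≤ C := by linarith
  have s0 : 0 ≤ √ρ := Real.sqrt_nonneg ρ
  have s1 : √ρ ≤ 1 := Real.sqrt_le_one.2 h1
  have hpos : ball x ρ ⊆ {y | 0 < u y} := fun y hy => hb y (mem_ball_iff_norm.1 hy)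
  have hux := hu.harm x (hpos (mem_ball_self hρ))
  have hw : Harm (fun y => u y - ev j y) (ball x ρ) := (hu.harm.mono hpos).sub (hj.hj.harm _)
  have hM : ∀ y ∈ ball x ρ, |u y - ev j y| ≤ 16 * C * (ρ ^ 3 * √ρ) := fun y hy => by
    have hy' : ‖y‖ < 2 * ρ := by
      have := norm_add_le (y - x) x
      rw [sub_add_cancel] at this
      linarith [mem_ball_iff_norm.1 hy]
    refine (Trap.abs (ht (2 * ρ) (by linarith) h2) hy' (hpos hy)).trans ?_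
    rw [neara_pow (by linarith)]
    have q : √(2 * ρ) ≤ 2 * √ρ := by
      rw [Real.sqrt_le_left (by positivity), mul_pow, Real.sq_sqrt hρ.le]
      linarith
    calc C * ((2 * ρ) ^ 3 * √(2 * ρ)) ≤ C * ((2 * ρ) ^ 3 * (2 * √ρ)) := by gcongr
      _ = _ := by ring
  obtain ⟨w1, w2, w3⟩ := hA _ x ρ _ hρ hw hM
  have e1 : A * (16 * C * (ρ ^ 3 * √ρ)) / ρ = 16 * (C * A) * ρ ^ 2 * √ρ := by field_simp
  have e2 : A * (16 * C * (ρ ^ 3 * √ρ)) / ρ ^ 2 = 16 * (C * A) * ρ * √ρ := by field_simp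
  have e3 : A * (16 * C * (ρ ^ 3 * √ρ)) / ρ ^ 3 = 16 * (C * A) * √ρ := by field_simp
  rw [e1] at w1
  rw [e2, D2_sub (est_two hux.1) (est_two (contDiff_ev j).contDiffAt), hj.hj.D2] at w2
  rw [e3, D3_sub (est_three hux.1) (est_three (contDiff_ev j).contDiffAt), hj.hj.D3] at w3
  replace w1 := w1.trans (mul_le_of_le_one_right (by positivity) s1)
  replace w2 := w2.trans (mul_le_of_le_one_right (by positivity) s1)
  rw [fderiv_fun_sub (hux.1.differentiableAt (by simp))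
    ((contDiff_ev j).differentiable (by simp) x), hj.hj.fderiv] at w1
  have r2 : 0 ≤ C * ρ ^ 2 := by positivity
  have r3 : C * ρ ^ 3 ≤ C * ρ ^ 2 :=
    mul_le_mul_of_nonneg_left (pow_le_pow_of_le_one hρ.le h1 (by norm_num)) C0
  refine ⟨l, j, hj, by linarith, ?_, ?_, ?_, ?_⟩
  · obtain ⟨z, hz⟩ : ∃ z, z = gradient u x - (1 + j.2.2.1 l l * ρ) • l := ⟨_, rfl⟩
    rw [← hz]
    have a1 : j.2.2.1 x z = ρ * (j.2.2.1 l l * ⟪l, z⟫) := by
      rw [hxl, map_smul, ContinuousLinearMap.smul_apply, hj.c2, smul_eq_mul]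
    have a2 : ‖z‖ ^ 2 = (fderiv ℝ u x - (j.2.1 + j.2.2.1 x + (1 / 2 : ℝ) • j.2.2.2 x x)) z +
        (1 / 2) * j.2.2.2 x x z := by
      rw [← real_inner_self_eq_norm_sq]
      nth_rewrite 1 [hz]
      rw [inner_sub_left, inner_gradient, real_inner_smul_left]
      simp only [ContinuousLinearMap.sub_apply, ContinuousLinearMap.add_apply,
        ContinuousLinearMap.smul_apply, smul_eq_mul, hj.c1, a1]
      ring
    have a3 := (le_abs_self _).trans (((fderiv ℝ u x - (j.2.1 + j.2.2.1 x +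
      (1 / 2 : ℝ) • j.2.2.2 x x)).le_opNorm z).trans (mul_le_mul_of_nonneg_right w1 (norm_nonneg z)))
    have a4 : j.2.2.2 x x z ≤ C * ρ ^ 2 * ‖z‖ := (le_abs_self _).trans ((abs_B3_le _ x x z).trans (by
      rw [hx]
      calc ‖j.2.2.2‖ * ρ * ρ * ‖z‖ ≤ C * ρ * ρ * ‖z‖ := by gcongr
        _ = _ := by ring))
    rcases (norm_nonneg z).eq_or_lt with z0 | z0
    · rw [← z0]
      positivity
    · refine le_of_mul_le_mul_right ?_ z0
      have := mul_nonneg r2 z0.le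
      nlinarith
  · have a1 := neara_quad hj hx.le
    have a2 : ⟪l, x⟫ = ρ := by
      rw [hxl, real_inner_smul_right, real_inner_self_eq_norm_sq, hj.unit]
      ring
    have a3 := hM x (mem_ball_self hρ)
    have a4 : C * (ρ ^ 3 * √ρ) ≤ C * ρ ^ 3 :=
      mul_le_mul_of_nonneg_left (mul_le_of_le_one_right (by positivity) s1) C0
    have a5 := mul_le_mul_of_nonneg_right j2 (by positivity : 0 ≤ ρ ^ 2)
    have a6 := mul_le_mul_of_nonneg_right j3 (by positivity : 0 ≤ ρ ^ 3)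
    have a7 : 0 ≤ C * A * ρ ^ 2 := by positivity
    rw [a2] at a1
    have := abs_sub_le (u x) (ev j x) ρ
    nlinarith
  · have a1 : D2 u x - j.2.2.1 = (D2 u x - (j.2.2.1 + j.2.2.2 x)) + j.2.2.2 x := by abel
    have a2 : ‖j.2.2.2 x‖ ≤ C * ρ := (j.2.2.2.le_opNorm x).trans (by rw [hx]; gcongr)
    rw [a1]
    refine (norm_add_le _ _).trans ?_
    have : 0 ≤ C * ρ := by positivity
    nlinarith
  · have : 0 ≤ C * √ρ := by positivity
    nlinarith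

end Vale.Agent.P098
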