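import Vale.Agent.P098.F.NearA

/-!
# P098 F/NearB  (helper names start with nearb_)

The boundary relations (pure algebra).  `p = gradient u x`, `S = D2 u x`, `M = j.2.2.1`, `m = M l l`, `‖p - l‖ ≤ 2 C ρ`, `‖p‖ ≤ 2`, `|mc u x - m| ≤ K ρ`, `|‖p‖ ^ 2 - 1 - 2 m ρ| ≤ K ρ ^ 2`, `u x ≥ ρ / 2`.
For `t`: the bilinear form `F v w = K l v w + sqf M v w - m M v w` (`exists_sqf`) vanishes on `l ⊥ × l ⊥` (`SJ.c3`); for `v ⊥ p`, `|⟪l, v⟫| = |⟪l - p, v⟫| ≤ 2 C ρ ‖v‖`; write `v = v' + ⟪l, v⟫ • l`.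
`sqf S v w - sqf M v w = ∑ (S - M) v b * S w b + ∑ M v b * (S - M) w b` (`abs_sum_bv_le`).  All errors are at most `K √ρ` for `ρ ≤ 1`.
-/

set_option maxSynthPendingDepth 3

open MeasureTheory Filter Topology Set Metric
open scoped ContDiff RealInnerProductSpace NNReal

noncomputable section

namespace Vale.Agent.P098

variable {d : ℕ}

theorem nearb_2 {M : B2 d} {v w : E d} {A x y : ℝ} (hM : ‖M‖ ≤ A) (hv : ‖v‖ ≤ x) (hw : ‖w‖ ≤ y) :
    |M v w| ≤ A * x * y := by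
  have hA : 0 ≤ A := (norm_nonneg _).trans hM
  have hx : 0 ≤ x := (norm_nonneg _).trans hv
  refine (abs_B2_le M v w).trans ?_
  gcongr

theorem nearb_3 {K : B3 d} {a : E d} (v w : E d) {A x : ℝ} (hK : ‖K‖ ≤ A) (ha : ‖a‖ ≤ x) :
    |K a v w| ≤ A * x * ‖v‖ * ‖w‖ := by
  have hA : 0 ≤ A := (norm_nonneg _).trans hK
  refine (abs_B3_le K a v w).trans ?_
  gcongr

theorem nearb_in {a : E d} (v : E d) {x : ℝ} (ha : ‖a‖ ≤ x) : |⟪a, v⟫| ≤ x * ‖v‖ :=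
  (abs_real_inner_le_norm a v).trans (by gcongr)

theorem nearb_mul {a b x y : ℝ} (ha : |a| ≤ x) (hb : |b| ≤ y) : |a * b| ≤ x * y := by
  rw [abs_mul]
  exact mul_le_mul ha hb (abs_nonneg _) ((abs_nonneg _).trans ha)

theorem nearb_mc {p l : E d} {S M : B2 d} {C a : ℝ} (hC : 1 ≤ C) (hl : ‖l‖ = 1) (hp : ‖p‖ ≤ 2)
    (hpl : ‖p - l‖ ≤ 2 * a) (hS : ‖S - M‖ ≤ a) (hM : ‖M‖ ≤ C) :
    |S p p - M l l| ≤ 10 * (C * a) := by
  have ha : 0 ≤ a := (norm_nonneg _).trans hS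
  have e : S p p - M l l = (S - M) p p + M (p - l) p + M l (p - l) := by
    simp only [map_sub, _root_.sub_apply]; ring
  have h1 := abs_le.1 (nearb_2 hS hp hp)
  have h2 := abs_le.1 (nearb_2 hM hpl hp)
  have h3 := abs_le.1 (nearb_2 hM hl.le hpl)
  have h4 : a ≤ C * a := le_mul_of_one_le_left ha hC
  rw [e, abs_le]
  constructor <;> linarith [h1.1, h1.2, h2.1, h2.2, h3.1, h3.2]

theorem nearb_s {p l : E d} {S M : B2 d} {C a : ℝ} (hC : 1 ≤ C) (hl : ‖l‖ = 1) (hp : ‖p‖ ≤ 2)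
    (hpl : ‖p - l‖ ≤ 2 * a) (hS : ‖S - M‖ ≤ a) (hM : ‖M‖ ≤ C)
    (c2 : ∀ v, M l v = M l l * ⟪l, v⟫) (v : E d) :
    |S p v - S p p * ⟪p, v⟫| ≤ 26 * (C * a) * ‖v‖ := by
  have ha : 0 ≤ a := (norm_nonneg _).trans hS
  have e : S p v - S p p * ⟪p, v⟫ =
      (S - M) p v + M (p - l) v - M l l * ⟪p - l, v⟫ - (S p p - M l l) * ⟪p, v⟫ := by
    simp only [map_sub, _root_.sub_apply, inner_sub_left, c2 v]; ring
  have h1 := abs_le.1 (nearb_2 (w := v) hS hp le_rfl)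
  have h2 := abs_le.1 (nearb_2 (w := v) hM hpl le_rfl)
  have h3 := abs_le.1 (nearb_mul (nearb_2 hM hl.le hl.le) (nearb_in v hpl))
  have h4 := abs_le.1 (nearb_mul (nearb_mc hC hl hp hpl hS hM) (nearb_in v hp))
  have h5 : a * ‖v‖ ≤ C * (a * ‖v‖) := le_mul_of_one_le_left (by positivity) hC
  rw [e, abs_le]
  constructor <;> linarith [h1.1, h1.2, h2.1, h2.2, h3.1, h3.2, h4.1, h4.2]

theorem nearb_F {p l : E d} {F : B2 d} {B a : ℝ} (hl : ‖l‖ = 1) (hpl : ‖p - l‖ ≤ 2 * a)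
    (hF : ‖F‖ ≤ B) (h0 : ∀ v w, ⟪l, v⟫ = 0 → ⟪l, w⟫ = 0 → F v w = 0) {v w : E d}
    (hv : ⟪p, v⟫ = 0) (hw : ⟪p, w⟫ = 0) : |F v w| ≤ 6 * (B * a) * ‖v‖ * ‖w‖ := by
  have key : ∀ v : E d, ⟪p, v⟫ = 0 → |⟪l, v⟫| ≤ 2 * a * ‖v‖ := fun v hv => by
    have := nearb_in v hpl
    rwa [inner_sub_left, hv, zero_sub, abs_neg] at this
  have perp : ∀ v : E d, ⟪l, v - ⟪l, v⟫ • l⟫ = 0 := fun v => by
    rw [inner_sub_right, inner_smul_right, real_inner_self_eq_norm_sq, hl]; ring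
  have e := h0 _ _ (perp v) (perp w)
  have e2 : F v w = ⟪l, v⟫ * F l w + ⟪l, w⟫ * F (v - ⟪l, v⟫ • l) l := by
    simp only [map_sub, map_smul, _root_.sub_apply, _root_.smul_apply, smul_eq_mul] at e ⊢
    linarith
  have hn : ‖v - ⟪l, v⟫ • l‖ ≤ 2 * ‖v‖ := by
    refine (norm_sub_le _ _).trans ?_
    have := nearb_in v hl.le
    rw [norm_smul, hl, Real.norm_eq_abs]
    linarith
  have h1 := abs_le.1 (nearb_mul (key v hv) (nearb_2 (w := w) hF hl.le le_rfl))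
  have h2 := abs_le.1 (nearb_mul (key w hw) (nearb_2 hF hn hl.le))
  rw [e2, abs_le]
  constructor <;> linarith [h1.1, h1.2, h2.1, h2.2]

theorem nearb_sum {A B : B2 d} (v w : E d) {x y : ℝ} (hA : ‖A‖ ≤ x) (hB : ‖B‖ ≤ y) :
    |∑ i, A v (bv i) * B w (bv i)| ≤ x * ‖v‖ * (y * ‖w‖) := by
  have hx : 0 ≤ x := (norm_nonneg _).trans hA
  refine (abs_sum_bv_le (A v) (B w)).trans (mul_le_mul ((A.le_opNorm v).trans (by gcongr))
    ((B.le_opNorm w).trans (by gcongr)) (norm_nonneg _) (by positivity))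

theorem nearb_sqf {S M : B2 d} {C a : ℝ} (hS : ‖S - M‖ ≤ a) (hM : ‖M‖ ≤ C) (hS2 : ‖S‖ ≤ 2 * C)
    (v w : E d) : |sqf S v w - sqf M v w| ≤ 3 * (C * a) * ‖v‖ * ‖w‖ := by
  have e : sqf S v w - sqf M v w = ∑ i, (S - M) v (bv i) * S w (bv i) +
      ∑ i, M v (bv i) * (S - M) w (bv i) := by
    simp only [sqf, ← Finset.sum_sub_distrib, ← Finset.sum_add_distrib, _root_.sub_apply]
    exact Finset.sum_congr rfl fun i _ => by ring
  have h1 := abs_le.1 (nearb_sum v w hS hS2)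
  have h2 := abs_le.1 (nearb_sum v w hM hS)
  rw [e, abs_le]
  constructor <;> linarith [h1.1, h1.2, h2.1, h2.2]

theorem nearb_t {p l : E d} {S M : B2 d} {T K : B3 d} {C a b : ℝ} (hC : 1 ≤ C) (hl : ‖l‖ = 1)
    (hp : ‖p‖ ≤ 2) (hpl : ‖p - l‖ ≤ 2 * a) (hS : ‖S - M‖ ≤ a) (hM : ‖M‖ ≤ C) (hS2 : ‖S‖ ≤ 2 * C)
    (hT : ‖T - K‖ ≤ b) (hK : ‖K‖ ≤ C)
    (c3 : ∀ v w, ⟪l, v⟫ = 0 → ⟪l, w⟫ = 0 → K l v w + sqf M v w - M l l * M v w = 0) {v w : E d}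
    (hv : ⟪p, v⟫ = 0) (hw : ⟪p, w⟫ = 0) :
    |T p v w + sqf S v w - S p p * S v w| ≤ (2 * b + 44 * (C ^ 2 * a)) * ‖v‖ * ‖w‖ := by
  have ha : 0 ≤ a := (norm_nonneg _).trans hS
  obtain ⟨N, hN⟩ := exists_sqf M
  have hFe : ∀ v w, (K l + N - M l l • M) v w = K l v w + sqf M v w - M l l * M v w := fun v w => by
    simp only [_root_.sub_apply, _root_.add_apply, _root_.smul_apply, smul_eq_mul, hN]
  have hm := nearb_2 hM hl.le hl.le
  have hF : ‖K l + N - M l l • M‖ ≤ 3 * C ^ 2 := norm_B2_le (by positivity) fun v w => by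
    have h1 := abs_le.1 (nearb_3 v w hK hl.le)
    have h2 := abs_le.1 (nearb_sum v w hM hM)
    have h3 := abs_le.1 (nearb_mul hm (nearb_2 (v := v) (w := w) hM le_rfl le_rfl))
    have h4 : C * (‖v‖ * ‖w‖) ≤ C * (C * (‖v‖ * ‖w‖)) :=
      le_mul_of_one_le_left (by positivity) hC
    rw [hFe, sqf, abs_le]
    constructor <;> linarith [h1.1, h1.2, h2.1, h2.2, h3.1, h3.2]
  have h0 := nearb_F hl hpl hF (fun v w h h' => by rw [hFe]; exact c3 v w h h') hv hw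
  rw [hFe] at h0
  have e : T p v w + sqf S v w - S p p * S v w = (K l v w + sqf M v w - M l l * M v w) +
      (T - K) p v w + K (p - l) v w + (sqf S v w - sqf M v w) - (S p p - M l l) * S v w -
      M l l * (S - M) v w := by
    simp only [map_sub, _root_.sub_apply]; ring
  have h0 := abs_le.1 h0
  have h1 := abs_le.1 (nearb_3 v w hT hp)
  have h2 := abs_le.1 (nearb_3 v w hK hpl)
  have h3 := abs_le.1 (nearb_sqf hS hM hS2 v w)
  have h4 := abs_le.1 (nearb_mul (nearb_mc hC hl hp hpl hS hM)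
    (nearb_2 (v := v) (w := w) hS2 le_rfl le_rfl))
  have h5 := abs_le.1 (nearb_mul hm (nearb_2 (v := v) (w := w) hS le_rfl le_rfl))
  have h6 : C * (a * (‖v‖ * ‖w‖)) ≤ C * (C * (a * (‖v‖ * ‖w‖))) :=
    le_mul_of_one_le_left (by positivity) hC
  rw [e, abs_le]
  constructor <;> linarith [h0.1, h0.2, h1.1, h1.2, h2.1, h2.2, h3.1, h3.2, h4.1, h4.2, h5.1, h5.2]

theorem nearb_g {n m c U C ρ : ℝ} (hC : 1 ≤ C) (hρ : 0 < ρ) (ha : C * ρ ≤ 1 / 2) (hn0 : 0 ≤ n)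
    (hn : n ≤ 2) (hm : |m| ≤ C) (h1 : |n - (1 + m * ρ)| ≤ C * ρ ^ 2)
    (h2 : |c - m| ≤ 10 * (C * (C * ρ))) (h3 : |U - ρ| ≤ C * ρ ^ 2) :
    |1 - n ^ 2 + 2 * c * U| ≤ 100 * C ^ 2 * ρ * U := by
  have hq : C * ρ ^ 2 ≤ ρ / 2 := by nlinarith
  have hU := abs_le.1 (h3.trans hq)
  have hmρ : |m * ρ| ≤ C * ρ := nearb_mul hm (abs_of_pos hρ).le
  have hmρ' := abs_le.1 hmρ
  have e : 1 - n ^ 2 + 2 * c * U = -((n - (1 + m * ρ)) * (n + (1 + m * ρ))) - (m * ρ) * (m * ρ) +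
      2 * ((c - m) * U) + 2 * (m * (U - ρ)) := by ring
  have k1 := abs_le.1 (nearb_mul h1 (show |n + (1 + m * ρ)| ≤ 4 by
    rw [abs_le]; constructor <;> linarith [hmρ'.1, hmρ'.2]))
  have k2 := abs_le.1 (nearb_mul hmρ hmρ)
  have k3 := abs_le.1 (nearb_mul h2 (show |U| ≤ 2 * ρ by
    rw [abs_le]; constructor <;> linarith [hU.1, hU.2]))
  have k4 := abs_le.1 (nearb_mul hm h3)
  have k5 : C * ρ ^ 2 ≤ C * (C * ρ ^ 2) := le_mul_of_one_le_left (by positivity) hC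
  have k6 : 100 * C ^ 2 * ρ * (ρ / 2) ≤ 100 * C ^ 2 * ρ * U :=
    mul_le_mul_of_nonneg_left (by linarith [hU.1]) (by positivity)
  have k7 : 0 ≤ C * ρ ^ 2 := by positivity
  rw [e, abs_le]
  constructor <;> linarith [k1.1, k1.2, k2.1, k2.2, k3.1, k3.2, k4.1, k4.2]

theorem near_b (d : ℕ) {C ε : ℝ} (hC : 1 ≤ C) (hε : 0 < ε) : ∃ ρ₀ : ℝ, 0 < ρ₀ ∧
    ∀ (u : E d → ℝ) (x l : E d) (j : Jet d) (ρ : ℝ), SJ l j → ‖j‖ ≤ C → Near u x l j C ρ → 0 < ρ → ρ ≤ ρ₀ →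
      BC u x ε := by
  have hC0 : 0 < C := by linarith
  have hε1 : 0 < min ε 1 := lt_min hε one_pos
  refine ⟨(min ε 1 / (100 * C ^ 3)) ^ 2, by positivity, fun u x l j ρ hj hjC hN hρ hρ0 => ?_⟩
  obtain ⟨σ, hσ⟩ : ∃ σ, σ = √ρ := ⟨_, rfl⟩
  have hσ0 : 0 < σ := by rw [hσ]; exact Real.sqrt_pos.2 hρ
  have hσ1 : σ ≤ min ε 1 / (100 * C ^ 3) := by
    rw [hσ]; exact Real.sqrt_le_iff.2 ⟨by positivity, hρ0⟩
  rw [le_div_iff₀ (by positivity)] at hσ1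
  have hσε : σ * (100 * C ^ 3) ≤ ε := hσ1.trans (min_le_left _ _)
  have hσ2 : σ * (100 * C ^ 3) ≤ 1 := hσ1.trans (min_le_right _ _)
  have c1 : σ ≤ C * σ := le_mul_of_one_le_left hσ0.le hC
  have c2 : C * σ ≤ C * (C * σ) := le_mul_of_one_le_left (by positivity) hC
  have c3 : C * (C * σ) ≤ C * (C * (C * σ)) := le_mul_of_one_le_left (by positivity) hC
  have hρσ : ρ ≤ σ := by
    have h1 : σ * σ = ρ := by rw [hσ]; exact Real.mul_self_sqrt hρ.le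
    have h2 : σ * σ ≤ 1 * σ := mul_le_mul_of_nonneg_right (by linarith) hσ0.le
    linarith
  have d1 : C * ρ ≤ C * σ := by gcongr
  have d2 : C * (C * ρ) ≤ C * (C * σ) := by gcongr
  have d3 : C * (C * (C * ρ)) ≤ C * (C * (C * σ)) := by gcongr
  have d0 : 0 < C * ρ := by positivity
  have hM : ‖j.2.2.1‖ ≤ C := (jet_le j).2.2.1.trans hjC
  have hK : ‖j.2.2.2‖ ≤ C := (jet_le j).2.2.2.trans hjC
  have hl := hj.unit
  have hm : |j.2.2.1 l l| ≤ C := by simpa using nearb_2 hM hl.le hl.le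
  have hmρ : |j.2.2.1 l l * ρ| ≤ C * ρ := nearb_mul hm (abs_of_pos hρ).le
  have hq : C * ρ ^ 2 ≤ C * ρ := by
    have : C * ρ * ρ ≤ C * ρ * 1 := mul_le_mul_of_nonneg_left (by linarith) d0.le
    linarith
  have hpl : ‖gradient u x - l‖ ≤ 2 * (C * ρ) := by
    have e : gradient u x - l = (gradient u x - (1 + j.2.2.1 l l * ρ) • l) + (j.2.2.1 l l * ρ) • l := by
      rw [add_smul, one_smul]; abel
    rw [e]
    refine (norm_add_le _ _).trans ?_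
    rw [norm_smul, hl, Real.norm_eq_abs]
    linarith [hN.g]
  have hg1 : |‖gradient u x‖ - 1| ≤ 2 * (C * ρ) := by
    have := abs_norm_sub_norm_le (gradient u x) l
    rw [hl] at this
    exact this.trans hpl
  have hp : ‖gradient u x‖ ≤ 2 := by linarith [(abs_le.1 hg1).2]
  have hS2 : ‖D2 u x‖ ≤ 2 * C := by
    have h1 := norm_le_insert' (D2 u x) j.2.2.1
    have h2 : C * ρ ≤ C * 1 := mul_le_mul_of_nonneg_left (by linarith) hC0.le
    linarith [hN.s]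
  refine ⟨by linarith, ?_, fun v => ?_, fun v w hv hw => ?_⟩
  · have h1 : |‖gradient u x‖ - (1 + j.2.2.1 l l * ρ)| ≤ C * ρ ^ 2 := by
      have := abs_norm_sub_norm_le (gradient u x) ((1 + j.2.2.1 l l * ρ) • l)
      rw [norm_smul, hl, mul_one, Real.norm_eq_abs,
        abs_of_nonneg (a := 1 + j.2.2.1 l l * ρ) (by linarith [(abs_le.1 hmρ).1])] at this
      exact this.trans hN.g
    have h2 := nearb_g hC hρ (by linarith) (norm_nonneg _) hp hm h1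
      (nearb_mc hC hl hp hpl hN.s hM) hN.v
    refine h2.trans (mul_le_mul_of_nonneg_right (by linarith) ?_)
    have : C * ρ * ρ ≤ 1 * ρ := mul_le_mul_of_nonneg_right (by linarith) hρ.le
    linarith [(abs_le.1 hN.v).1]
  · refine (nearb_s hC hl hp hpl hN.s hM hj.c2 v).trans ?_
    exact mul_le_mul_of_nonneg_right (by linarith) (norm_nonneg _)
  · refine (nearb_t hC hl hp hpl hN.s hM hS2 hN.t hK hj.c3 hv hw).trans ?_
    refine mul_le_mul_of_nonneg_right (mul_le_mul_of_nonneg_right ?_ (norm_nonneg _))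
      (norm_nonneg _)
    rw [← hσ]
    linarith

end Vale.Agent.P098
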