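import Vale.Agent.P098.F.NearB

/-!
# P098 F/Pre  (helper names start with pre_)

From uniform expansions to `PreCone`.  For `0 < u x` let `z ∈ FB u` be a nearest zero (`exists_near`, `Hom.zero`), `ρ = ‖x - z‖`, `w = sc u z 1` (`Mn.sc`); the jets of `w` at `x - z` are those of `u` at `x` (`fderiv_sc`, `D2_sc`, `D3_sc` with `r = 1`).
`small_dist`: the compact set `{‖x‖ ≤ b, ρ₀ ≤ infDist x {u = 0}}` carries a positive lower bound of `u`.  `bc`: `near_a`, `near_b` with `‖z‖ ≥ a / 2`.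
`bd`: for `‖x‖ = 1`: if `ρ ≤ ρ₀ = min (1 / 2) (r₀ / 2)` use `Near.s`, `Near.t`; otherwise `harm_est3` on `ball x ρ₀` where `|u| ≤ 2 L`.  For general `x ≠ 0`: `sc u 0 s = u` (`Hom.sc`, `sc_one`), `D2_sc`, `D3_sc`.
-/

set_option maxSynthPendingDepth 3

open MeasureTheory Filter Topology Set Metric
open scoped ContDiff RealInnerProductSpace NNReal

noncomputable section

namespace Vale.Agent.P098

variable {d : ℕ}

theorem small_dist {u : E d → ℝ} (hu : Continuous u) (hn : ∀ x, 0 ≤ u x) (h0 : u 0 = 0) (b : ℝ) {ρ₀ : ℝ}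
    (hρ : 0 < ρ₀) : ∃ δ : ℝ, 0 < δ ∧ ∀ x, ‖x‖ ≤ b → u x < δ → ∃ y, ‖y - x‖ < ρ₀ ∧ u y = 0 := by
  have hK : IsCompact (closedBall (0 : E d) b ∩ {x | ρ₀ ≤ infDist x {y | u y = 0}}) :=
    (isCompact_closedBall 0 b).inter_right (isClosed_le continuous_const (continuous_infDist_pt _))
  have hpos : ∀ x ∈ closedBall (0 : E d) b ∩ {x | ρ₀ ≤ infDist x {y | u y = 0}}, 0 < u x := by
    intro x hx
    refine (hn x).lt_of_ne fun e => ?_
    have h1 : infDist x {y | u y = 0} = 0 := infDist_zero_of_mem e.symm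
    have h2 : ρ₀ ≤ infDist x {y | u y = 0} := hx.2
    linarith
  obtain ⟨δ, hδ, hle⟩ := hK.exists_forall_le' hu.continuousOn hpos
  refine ⟨δ, hδ, fun x hx hu' => ?_⟩
  have h1 : infDist x {y | u y = 0} < ρ₀ := by
    by_contra hc
    exact absurd (hle x ⟨mem_closedBall_zero_iff.2 hx, not_lt.1 hc⟩) (not_le.2 hu')
  obtain ⟨y, hy, hd⟩ := (infDist_lt_iff (s := {y | u y = 0}) ⟨0, h0⟩).1 h1
  exact ⟨y, by rwa [← dist_eq_norm, dist_comm], hy⟩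


theorem pre_jets (u : E d → ℝ) (x z : E d) : sc u z 1 (x - z) = u x ∧
    gradient (sc u z 1) (x - z) = gradient u x ∧ D2 (sc u z 1) (x - z) = D2 u x ∧
      D3 (sc u z 1) (x - z) = D3 u x := by
  have e : z + (1 : ℝ) • (x - z) = x := by rw [one_smul, add_sub_cancel]
  refine ⟨?_, ?_, ?_, ?_⟩
  · unfold sc
    rw [e, div_one]
  · unfold gradient
    rw [fderiv_sc u z one_ne_zero, e]
  · rw [D2_sc u z one_ne_zero, e, one_smul]
  · rw [D3_sc u z one_ne_zero, e, one_pow, one_smul]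

theorem bc_shift {u : E d → ℝ} {x z : E d} {ε : ℝ} (h : BC (sc u z 1) (x - z) ε) : BC u x ε := by
  obtain ⟨e0, e1, e2, e3⟩ := pre_jets u x z
  have e4 : mc (sc u z 1) (x - z) = mc u x := by
    unfold mc
    rw [e1, e2]
  obtain ⟨g1, g2, s, t⟩ := h
  rw [e1] at g1
  rw [e0, e1, e4] at g2
  rw [e1, e2, e4] at s
  rw [e1, e2, e3, e4] at t
  exact ⟨g1, g2, s, t⟩


theorem pre_near {u : E d → ℝ} (h : Mn u) {a C r₀ : ℝ} (hC : 1 ≤ C)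
    (he : ∀ x₀ ∈ FB u, a ≤ ‖x₀‖ → Exp (sc u x₀ 1) C r₀) :
    ∃ C' : ℝ, 1 ≤ C' ∧ ∀ (x y : E d) (ρ₀ : ℝ), 0 < u x → u y = 0 → ‖y - x‖ < ρ₀ → 2 * ρ₀ ≤ r₀ →
      ρ₀ ≤ 1 → a + ρ₀ ≤ ‖x‖ → ∃ (z l : E d) (j : Jet d) (ρ : ℝ), 0 < ρ ∧ ρ ≤ ρ₀ ∧ SJ l j ∧
        ‖j‖ ≤ C' ∧ Near (sc u z 1) (x - z) l j C' ρ := by
  obtain ⟨C', hC', hn⟩ := near_a d hC
  refine ⟨C', hC', fun x y ρ₀ hx hy h1 h2 h3 h4 => ?_⟩
  obtain ⟨z, hz, z0, z1, z2⟩ := exists_near h.lip.continuous h.nn hy hx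
  rw [norm_sub_rev x y] at z1
  have hza : a ≤ ‖z‖ := by
    have := norm_sub_norm_le x z
    linarith
  obtain ⟨l, j, hj, hjn, hN⟩ := hn (sc u z 1) (x - z) r₀ ‖x - z‖ (h.sc z one_pos) (he z hz hza) z0
    (by linarith) (by linarith) rfl (fun w hw => by
      unfold sc
      rw [div_one, one_smul]
      refine z2 _ ?_
      rwa [show z + w - x = w - (x - z) by abel])
  exact ⟨z, l, j, _, z0, by linarith, hj, hjn, hN⟩

theorem pre_unit {u : E d → ℝ} (h : Mn u) (hh : Hom u) {C r₀ : ℝ} (hC : 1 ≤ C) (hr : 0 < r₀)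
    (he : ∀ x₀ ∈ FB u, 1 / 2 ≤ ‖x₀‖ → Exp (sc u x₀ 1) C r₀) :
    ∃ K : ℝ, ∀ x, ‖x‖ = 1 → 0 < u x → ‖D2 u x‖ ≤ K ∧ ‖D3 u x‖ ≤ K := by
  obtain ⟨C', hC', hn⟩ := pre_near h hC he
  obtain ⟨K, hK1, hK⟩ := harm_est3 d
  obtain ⟨L, hL0, -, hL⟩ := h.lip.bdd
  obtain ⟨ρ₀, hρ, m1, m2⟩ : ∃ ρ₀ : ℝ, 0 < ρ₀ ∧ ρ₀ ≤ 1 / 2 ∧ ρ₀ ≤ r₀ / 2 :=
    ⟨min (1 / 2) (r₀ / 2), by positivity, min_le_left _ _, min_le_right _ _⟩
  refine ⟨max (2 * C') (max (K * (2 * L) / ρ₀ ^ 2) (K * (2 * L) / ρ₀ ^ 3)), fun x hx hp => ?_⟩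
  by_cases hc : ∃ y, ‖y - x‖ < ρ₀ ∧ u y = 0
  · obtain ⟨y, hy, y0⟩ := hc
    obtain ⟨z, l, j, ρ, r0, r1, -, hjn, hN⟩ :=
      hn x y ρ₀ hp y0 hy (by linarith) (by linarith) (by linarith)
    obtain ⟨-, -, e2, e3⟩ := pre_jets u x z
    obtain ⟨-, -, j2, j3⟩ := jet_le j
    have s := hN.s
    have t := hN.t
    rw [e2] at s
    rw [e3] at t
    have a2 := norm_sub_norm_le (D2 u x) j.2.2.1
    have a3 := norm_sub_norm_le (D3 u x) j.2.2.2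
    have b2 : C' * ρ ≤ C' := mul_le_of_le_one_right (by linarith) (by linarith)
    have b3 : C' * √ρ ≤ C' :=
      mul_le_of_le_one_right (by linarith) (Real.sqrt_le_one.2 (by linarith))
    exact ⟨le_max_of_le_left (by linarith), le_max_of_le_left (by linarith)⟩
  · have hb : ball x ρ₀ ⊆ {y | 0 < u y} := fun y hy =>
      (h.nn y).lt_of_ne fun e => hc ⟨y, mem_ball_iff_norm.1 hy, e.symm⟩
    obtain ⟨-, k2, k3⟩ := hK u x ρ₀ (2 * L) hρ (h.harm.mono hb) (fun y hy => by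
      have h1 := hL y 0
      rw [hh.zero, sub_zero, sub_zero] at h1
      have h2 := norm_sub_norm_le y x
      have h3 := mem_ball_iff_norm.1 hy
      have h4 : L * ‖y‖ ≤ L * 2 := mul_le_mul_of_nonneg_left (by linarith) hL0
      linarith)
    exact ⟨le_max_of_le_right (le_max_of_le_left k2), le_max_of_le_right (le_max_of_le_right k3)⟩

theorem pre_of_exp {u : E d → ℝ} (h : Mn u) (hh : Hom u)
    (he : ∀ a : ℝ, 0 < a → ∃ C r₀ : ℝ, 1 ≤ C ∧ 0 < r₀ ∧ ∀ x₀ ∈ FB u, a ≤ ‖x₀‖ → Exp (sc u x₀ 1) C r₀) :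
    PreCone u := by
  refine ⟨h.lip, h.nn, hh, h.harm, ?_, fun ε hε a b ha => ?_⟩
  · obtain ⟨C, r₀, hC, hr, he'⟩ := he (1 / 2) (by norm_num)
    obtain ⟨K, hK⟩ := pre_unit h hh hC hr he'
    refine ⟨K, fun x hx => ?_⟩
    have x0 : x ≠ 0 := by
      rintro rfl
      rw [hh.zero] at hx
      exact lt_irrefl _ hx
    have hs : 0 < ‖x‖ := norm_pos_iff.2 x0
    have e : sc u 0 ‖x‖ = u := by
      have := hh.sc 0 1 hs
      rwa [smul_zero, mul_one, sc_one] at this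
    have ex : (0 : E d) + ‖x‖ • (‖x‖⁻¹ • x) = x := by
      rw [zero_add, smul_smul, mul_inv_cancel₀ hs.ne', one_smul]
    have hw : ‖(‖x‖⁻¹ • x : E d)‖ = 1 := by
      rw [norm_smul, norm_inv, norm_norm, inv_mul_cancel₀ hs.ne']
    have hp : 0 < u (‖x‖⁻¹ • x) := by
      rw [hh _ (_root_.inv_pos.2 hs)]
      exact mul_pos (_root_.inv_pos.2 hs) hx
    obtain ⟨k2, k3⟩ := hK _ hw hp
    have e2 := D2_sc u 0 hs.ne' (‖x‖⁻¹ • x)
    have e3 := D3_sc u 0 hs.ne' (‖x‖⁻¹ • x)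
    rw [e, ex] at e2 e3
    rw [e2, norm_smul, norm_norm] at k2
    rw [e3, norm_smul, norm_pow, norm_norm] at k3
    exact ⟨k2, k3⟩
  · obtain ⟨C, r₀, hC, hr, he'⟩ := he (a / 2) (by positivity)
    obtain ⟨C', hC', hn⟩ := pre_near h hC he'
    obtain ⟨ρ₁, hρ₁, hb⟩ := near_b d hC' hε
    have hm : 0 < min (min ρ₁ 1) (min (r₀ / 2) (a / 2)) := by positivity
    have m1 : min (min ρ₁ 1) (min (r₀ / 2) (a / 2)) ≤ ρ₁ := (min_le_left _ _).trans (min_le_left _ _)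
    have m2 : min (min ρ₁ 1) (min (r₀ / 2) (a / 2)) ≤ 1 := (min_le_left _ _).trans (min_le_right _ _)
    have m3 : min (min ρ₁ 1) (min (r₀ / 2) (a / 2)) ≤ r₀ / 2 :=
      (min_le_right _ _).trans (min_le_left _ _)
    have m4 : min (min ρ₁ 1) (min (r₀ / 2) (a / 2)) ≤ a / 2 :=
      (min_le_right _ _).trans (min_le_right _ _)
    obtain ⟨δ, hδ, hd⟩ := small_dist h.lip.continuous h.nn hh.zero b hm
    refine ⟨δ, hδ, fun x h1 h2 h3 h4 => ?_⟩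
    obtain ⟨y, hy, y0⟩ := hd x h2 h4
    obtain ⟨z, l, j, ρ, r0, r1, hj, hjn, hN⟩ :=
      hn x y _ h3 y0 hy (by linarith) m2 (by linarith)
    exact bc_shift (hb _ _ l j ρ hj hjn hN r0 (r1.trans m1))


end Vale.Agent.P098
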